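import Mathlib

/-!
# A local form of Higman's argument for Kaplansky's zero-divisor conjecture

If `α β = 0` in `K[G]` with `α`, `β` nonzero and `1` in the support of `α`, and the subgroup generated
by the support of `α` has a nontrivial homomorphism to the integers, then the lowest parts of `α`
and `β` for this homomorphism are again nonzero with zero product, and the support has become
smaller.  Hence a zero divisor of smallest support generates, after translation, a group with no
homomorphism onto the integers, and the conjecture reduces to finitely generated groups with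
finite abelianization.
-/

namespace Vale.Agent.Results.P201.LocalHigman

open MonoidAlgebra

universe u v

variable {K : Type v} [Field K]

/-- The integer value of a homomorphism to `Multiplicative ℤ`. -/
private def val {L : Type u} [Group L] (φ : L →* Multiplicative ℤ) (x : L) : ℤ :=
  Multiplicative.toAdd (φ x)

private lemma val_mul {L : Type u} [Group L] (φ : L →* Multiplicative ℤ) (x y : L) :
    val φ (x * y) = val φ x + val φ y := by
  simp [val]

private lemma val_inv {L : Type u} [Group L] (φ : L →* Multiplicative ℤ) (x : L) :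
    val φ x⁻¹ = - val φ x := by
  simp [val]

/-- The part of `x` at one level. -/
private noncomputable def level {L : Type u} [Group L] (φ : L →* Multiplicative ℤ) (m : ℤ)
    (x : MonoidAlgebra K L) : MonoidAlgebra K L :=
  MonoidAlgebra.ofCoeff (x.coeff.filter (fun g => val φ g = m))

private lemma level_coeff {L : Type u} [Group L] (φ : L →* Multiplicative ℤ) (m : ℤ)
    (x : MonoidAlgebra K L) (g : L) :
    (level φ m x).coeff g = if val φ g = m then x.coeff g else 0 := by
  classical
  simp only [level, coeff_ofCoeff]
  exact Finsupp.filter_apply _ _ _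

/-- The lowest level of a nonzero element. -/
private lemma exists_min_level {L : Type u} [Group L] (φ : L →* Multiplicative ℤ)
    (x : MonoidAlgebra K L) (hx : x ≠ 0) :
    ∃ g ∈ x.coeff.support, ∀ h ∈ x.coeff.support, val φ g ≤ val φ h := by
  have hne : x.coeff.support.Nonempty := by
    rw [Finsupp.support_nonempty_iff]
    simpa using hx
  exact Finset.exists_min_image _ (val φ) hne

/-- The product of the lowest parts vanishes. -/
private lemma lowest_mul {L : Type u} [Group L] (φ : L →* Multiplicative ℤ)
    (α β : MonoidAlgebra K L) (hαβ : α * β = 0) (m n : ℤ)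
    (hm : ∀ h ∈ α.coeff.support, m ≤ val φ h) (hn : ∀ h ∈ β.coeff.support, n ≤ val φ h) :
    level φ m α * level φ n β = 0 := by
  classical
  ext x
  rw [coeff_mul_apply_left]
  simp only [coeff_zero, Finsupp.coe_zero, Pi.zero_apply]
  rw [Finsupp.sum]
  by_cases hx : val φ x = m + n
  · have hz : (α * β).coeff x = 0 := by rw [hαβ]; simp
    rw [coeff_mul_apply_left, Finsupp.sum] at hz
    rw [← hz]
    have hsub : (level φ m α).coeff.support ⊆ α.coeff.support := by
      intro g hg
      rw [Finsupp.mem_support_iff, level_coeff] at hg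
      rw [Finsupp.mem_support_iff]
      intro h0
      apply hg
      split_ifs <;> simp [h0]
    rw [← Finset.sum_subset hsub]
    · apply Finset.sum_congr rfl
      intro g hg
      have hg' : val φ g = m := by
        rw [Finsupp.mem_support_iff, level_coeff] at hg
        by_contra h
        exact hg (if_neg h)
      rw [level_coeff, if_pos hg', level_coeff, if_pos]
      rw [val_mul, val_inv, hg', hx]
      ring
    · intro g hg hg0
      have hg' : val φ g ≠ m := by
        intro h
        apply hg0
        rw [Finsupp.mem_support_iff, level_coeff, if_pos h]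
        simpa using hg
      have hlt : m < val φ g := lt_of_le_of_ne (hm g hg) (Ne.symm hg')
      have : β.coeff (g⁻¹ * x) = 0 := by
        by_contra h0
        have := hn _ (Finsupp.mem_support_iff.mpr h0)
        rw [val_mul, val_inv, hx] at this
        omega
      rw [this, mul_zero]
  · apply Finset.sum_eq_zero
    intro g hg
    have hg' : val φ g = m := by
      rw [Finsupp.mem_support_iff, level_coeff] at hg
      by_contra h
      exact hg (if_neg h)
    rw [level_coeff φ n β, if_neg, mul_zero]
    intro h
    apply hx
    rw [val_mul, val_inv, hg'] at h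
    omega

/-- Restriction to a subgroup containing the support of the left factor. -/
private lemma restrict {G : Type u} [Group G] (α β : MonoidAlgebra K G) (hα : α ≠ 0) (hβ : β ≠ 0)
    (hαβ : α * β = 0) (L : Subgroup G) (hL : ∀ x ∈ α.coeff.support, x ∈ L) :
    ∃ α' β' : MonoidAlgebra K L, α' ≠ 0 ∧ β' ≠ 0 ∧ α' * β' = 0 ∧
      ∀ l : L, α'.coeff l = α.coeff l := by
  classical
  have hne : β.coeff.support.Nonempty := by
    rw [Finsupp.support_nonempty_iff]
    simpa using hβ
  obtain ⟨g₀, hg₀⟩ := hne
  have hinjα : Function.Injective (fun l : L => (l : G)) := Subtype.val_injective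
  have hinjβ : Function.Injective (fun l : L => (l : G) * g₀) := fun a b h =>
    Subtype.val_injective (mul_right_cancel h)
  let α' : MonoidAlgebra K L := MonoidAlgebra.ofCoeff
    (α.coeff.comapDomain (fun l : L => (l : G)) hinjα.injOn)
  let β' : MonoidAlgebra K L := MonoidAlgebra.ofCoeff
    (β.coeff.comapDomain (fun l : L => (l : G) * g₀) hinjβ.injOn)
  have hα'c : ∀ l : L, α'.coeff l = α.coeff l := fun l => by
    simp [α', Finsupp.comapDomain_apply]
  have hβ'c : ∀ l : L, β'.coeff l = β.coeff ((l : G) * g₀) := fun l => by
    simp [β', Finsupp.comapDomain_apply]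
  refine ⟨α', β', ?_, ?_, ?_, hα'c⟩
  · intro h0
    apply hα
    ext x
    by_cases hx : x ∈ α.coeff.support
    · have := hα'c ⟨x, hL x hx⟩
      rw [h0] at this
      simpa using this.symm
    · simpa using Finsupp.notMem_support_iff.mp hx
  · intro h0
    have := hβ'c 1
    rw [h0] at this
    simp only [coeff_zero, Finsupp.coe_zero, Pi.zero_apply, OneMemClass.coe_one, one_mul] at this
    exact (Finsupp.mem_support_iff.mp hg₀) this.symm
  · ext l
    have hz : (α * β).coeff ((l : G) * g₀) = 0 := by rw [hαβ]; simp
    rw [coeff_mul_apply_left, Finsupp.sum] at hz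
    rw [coeff_mul_apply_left, Finsupp.sum]
    simp only [coeff_zero, Finsupp.coe_zero, Pi.zero_apply]
    rw [← hz]
    have hsupp : α.coeff.support = α'.coeff.support.map ⟨fun l : L => (l : G), hinjα⟩ := by
      ext x
      simp only [Finset.mem_map, Function.Embedding.coeFn_mk]
      constructor
      · intro hx
        refine ⟨⟨x, hL x hx⟩, ?_, rfl⟩
        rw [Finsupp.mem_support_iff, hα'c]
        exact Finsupp.mem_support_iff.mp hx
      · rintro ⟨l', hl', rfl⟩
        rw [Finsupp.mem_support_iff, hα'c] at hl'
        exact Finsupp.mem_support_iff.mpr hl'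
    rw [hsupp, Finset.sum_map]
    apply Finset.sum_congr rfl
    intro h _
    simp only [Function.Embedding.coeFn_mk]
    rw [hα'c, hβ'c]
    congr 2
    simp [mul_assoc]

/-- The image in the big group. -/
private lemma mapUp {G : Type u} [Group G] (L : Subgroup G) (a b : MonoidAlgebra K L)
    (ha : a ≠ 0) (hb : b ≠ 0) (hab : a * b = 0) :
    ∃ a' b' : MonoidAlgebra K G, a' ≠ 0 ∧ b' ≠ 0 ∧ a' * b' = 0 ∧
      a'.coeff.support.card = a.coeff.support.card := by
  classical
  have hinj : Function.Injective (L.subtype : L → G) := L.subtype_injective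
  refine ⟨mapDomain L.subtype a, mapDomain L.subtype b, ?_, ?_, ?_, ?_⟩
  · intro h
    apply ha
    apply mapDomain_injective (R := K) hinj
    rw [h, mapDomain_zero]
  · intro h
    apply hb
    apply mapDomain_injective (R := K) hinj
    rw [h, mapDomain_zero]
  · rw [← mapDomain_mul, hab, mapDomain_zero]
  · change (Finsupp.mapDomain L.subtype a.coeff).support.card = _
    rw [Finsupp.mapDomain_support_of_injective hinj, Finset.card_image_of_injective _ hinj]

/-- The descent step. -/
private lemma descent {G : Type u} [Group G] (α β : MonoidAlgebra K G) (hα : α ≠ 0) (hβ : β ≠ 0)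
    (hαβ : α * β = 0) (L : Subgroup G) (hL : ∀ x ∈ α.coeff.support, x ∈ L)
    (h1 : (1 : G) ∈ α.coeff.support) (φ : L →* Multiplicative ℤ)
    (s : G) (hs : s ∈ α.coeff.support) (hφ : φ ⟨s, hL s hs⟩ ≠ 1) :
    ∃ a' b' : MonoidAlgebra K G, a' ≠ 0 ∧ b' ≠ 0 ∧ a' * b' = 0 ∧
      a'.coeff.support.card < α.coeff.support.card := by
  classical
  obtain ⟨α', β', hα', hβ', hz, hc⟩ := restrict α β hα hβ hαβ L hL
  obtain ⟨g, hg, hgmin⟩ := exists_min_level φ α' hα'
  obtain ⟨g', hg', hgmin'⟩ := exists_min_level φ β' hβ'
  have hlow := lowest_mul φ α' β' hz (val φ g) (val φ g') hgmin hgmin'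
  have hne1 : level φ (val φ g) α' ≠ 0 := by
    intro h0
    have := level_coeff φ (val φ g) α' g
    rw [if_pos rfl, h0] at this
    exact (Finsupp.mem_support_iff.mp hg) (by simpa using this.symm)
  have hne2 : level φ (val φ g') β' ≠ 0 := by
    intro h0
    have := level_coeff φ (val φ g') β' g'
    rw [if_pos rfl, h0] at this
    exact (Finsupp.mem_support_iff.mp hg') (by simpa using this.symm)
  obtain ⟨a', b', ha', hb', hab', hcard⟩ := mapUp L _ _ hne1 hne2 hlow
  refine ⟨a', b', ha', hb', hab', ?_⟩
  rw [hcard]
  -- the support of `α'` has the same size as that of `α`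
  have hinj : Function.Injective (fun l : L => (l : G)) := Subtype.val_injective
  have hsupp : α.coeff.support = α'.coeff.support.image (fun l : L => (l : G)) := by
    ext x
    simp only [Finset.mem_image]
    constructor
    · intro hx
      refine ⟨⟨x, hL x hx⟩, ?_, rfl⟩
      rw [Finsupp.mem_support_iff, hc]
      exact Finsupp.mem_support_iff.mp hx
    · rintro ⟨l', hl', rfl⟩
      rw [Finsupp.mem_support_iff, hc] at hl'
      exact Finsupp.mem_support_iff.mpr hl'
  rw [hsupp, Finset.card_image_of_injective _ hinj]
  apply Finset.card_lt_card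
  have hsub : (level φ (val φ g) α').coeff.support ⊆ α'.coeff.support := by
    intro y hy
    rw [Finsupp.mem_support_iff, level_coeff] at hy
    rw [Finsupp.mem_support_iff]
    intro h0
    apply hy
    split_ifs <;> simp [h0]
  refine ⟨hsub, fun hsup => ?_⟩
  have h1' : (⟨1, L.one_mem⟩ : L) ∈ α'.coeff.support := by
    rw [Finsupp.mem_support_iff, hc]
    exact Finsupp.mem_support_iff.mp h1
  have hs' : (⟨s, hL s hs⟩ : L) ∈ α'.coeff.support := by
    rw [Finsupp.mem_support_iff, hc]
    exact Finsupp.mem_support_iff.mp hs
  have hlev : ∀ y ∈ α'.coeff.support, val φ y = val φ g := by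
    intro y hy
    have := hsup hy
    rw [Finsupp.mem_support_iff, level_coeff] at this
    by_contra h
    exact this (if_neg h)
  have e1 := hlev _ h1'
  have e2 := hlev _ hs'
  have e0 : val φ (⟨1, L.one_mem⟩ : L) = 0 := by
    have : (⟨1, L.one_mem⟩ : L) = 1 := rfl
    rw [this]; simp [val]
  apply hφ
  have : val φ ⟨s, hL s hs⟩ = 0 := by rw [e2, ← e1, e0]
  simpa [val] using this

/-- Translation on the left. -/
private lemma translate {G : Type u} [Group G] (α β : MonoidAlgebra K G)
    (hαβ : α * β = 0) (g : G) (hg : g ∈ α.coeff.support) :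
    ∃ α₁ : MonoidAlgebra K G, α₁ ≠ 0 ∧ α₁ * β = 0 ∧ (1 : G) ∈ α₁.coeff.support ∧
      α₁.coeff.support.card = α.coeff.support.card ∧
      (α₁.coeff.support : Set G) = (fun x => g⁻¹ * x) '' (α.coeff.support : Set G) := by
  classical
  have hc : ∀ x, (single g⁻¹ (1 : K) * α).coeff x = α.coeff (g * x) := fun x => by
    rw [coeff_single_mul_apply]; simp
  have hsupp : (single g⁻¹ (1 : K) * α).coeff.support = α.coeff.support.image (fun x => g⁻¹ * x) := by
    ext x
    simp only [Finset.mem_image, Finsupp.mem_support_iff, hc]
    constructor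
    · intro h
      exact ⟨g * x, h, by simp⟩
    · rintro ⟨y, hy, rfl⟩
      simpa using hy
  refine ⟨single g⁻¹ (1 : K) * α, ?_, ?_, ?_, ?_, ?_⟩
  · intro h0
    have := hc 1
    rw [h0] at this
    simp only [coeff_zero, Finsupp.coe_zero, Pi.zero_apply, mul_one] at this
    exact (Finsupp.mem_support_iff.mp hg) this.symm
  · rw [mul_assoc, hαβ, mul_zero]
  · rw [Finsupp.mem_support_iff, hc]
    simpa using Finsupp.mem_support_iff.mp hg
  · rw [hsupp, Finset.card_image_of_injective _ (mul_right_injective g⁻¹)]
  · rw [hsupp]; simp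

/-- A homomorphism which is trivial on a generating set is trivial. -/
private lemma exists_generator_ne {G : Type u} [Group G] (S : Set G)
    (φ : Subgroup.closure S →* Multiplicative ℤ) (hφ : φ ≠ 1) :
    ∃ s, ∃ hs : s ∈ S, φ ⟨s, Subgroup.subset_closure hs⟩ ≠ 1 := by
  by_contra hcon
  push Not at hcon
  apply hφ
  ext ⟨x, hx⟩
  have : φ ⟨x, hx⟩ = 1 := by
    induction hx using Subgroup.closure_induction with
    | mem x hx => exact hcon x hx
    | one => exact map_one φ
    | mul x y hx hy ihx ihy =>
      have : (⟨x * y, Subgroup.mul_mem _ hx hy⟩ : Subgroup.closure S) = ⟨x, hx⟩ * ⟨y, hy⟩ := rfl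
      rw [this, map_mul, ihx, ihy, one_mul]
    | inv x hx ih =>
      have : (⟨x⁻¹, Subgroup.inv_mem _ hx⟩ : Subgroup.closure S) = ⟨x, hx⟩⁻¹ := rfl
      rw [this, map_inv, ih, inv_one]
  rw [this]
  rfl

/-- Main induction for the local extension principle. -/
private lemma main {G : Type u} [Group G]
    (H : ∀ L : Subgroup G, L.FG → NoZeroDivisors (MonoidAlgebra K L) ∨
      ∃ φ : L →* Multiplicative ℤ, φ ≠ 1) :
    ∀ (n : ℕ) (α β : MonoidAlgebra K G), α.coeff.support.card = n → α ≠ 0 → β ≠ 0 → α * β ≠ 0 := by
  classical
  intro n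
  induction n using Nat.strong_induction_on with
  | _ n ih =>
    intro α β hn hα hβ hαβ
    have hne : α.coeff.support.Nonempty := by
      rw [Finsupp.support_nonempty_iff]
      simpa using hα
    obtain ⟨g, hg⟩ := hne
    obtain ⟨α₁, hα₁, hz, h1, hcard, _⟩ := translate α β hαβ g hg
    have hLin : ∀ x ∈ α₁.coeff.support, x ∈ Subgroup.closure (α₁.coeff.support : Set G) :=
      fun x hx => Subgroup.subset_closure hx
    rcases H (Subgroup.closure (α₁.coeff.support : Set G)) ⟨α₁.coeff.support, rfl⟩ with hd | ⟨φ, hφ⟩
    · obtain ⟨α', β', hα', hβ', hz', _⟩ := restrict α₁ β hα₁ hβ hz _ hLin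
      rcases hd.eq_zero_or_eq_zero_of_mul_eq_zero hz' with h | h
      · exact hα' h
      · exact hβ' h
    · obtain ⟨s, hs, hs'⟩ := exists_generator_ne _ φ hφ
      obtain ⟨a', b', ha', hb', hab', hlt⟩ :=
        descent α₁ β hα₁ hβ hz _ hLin h1 φ s (by simpa using hs) hs'
      exact ih a'.coeff.support.card (by omega) a' b' rfl ha' hb' hab'

/-- No left zero divisor has at most two terms. -/
private lemma two_terms {G : Type u} [Group G] (hG : ∀ g : G, IsOfFinOrder g → g = 1)
    (α β : MonoidAlgebra K G) (hα : α ≠ 0) (hβ : β ≠ 0) (hαβ : α * β = 0) :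
    3 ≤ α.coeff.support.card := by
  classical
  by_contra hlt
  have hle : α.coeff.support.card ≤ 2 := by omega
  have hne : β.coeff.support.Nonempty := by
    rw [Finsupp.support_nonempty_iff]
    simpa using hβ
  obtain ⟨y₀, hy₀⟩ := hne
  have hne' : α.coeff.support.Nonempty := by
    rw [Finsupp.support_nonempty_iff]
    simpa using hα
  obtain ⟨p, hp⟩ := hne'
  have hval : ∀ x, ∑ h ∈ α.coeff.support, α.coeff h * β.coeff (h⁻¹ * x) = 0 := by
    intro x
    have hz : (α * β).coeff x = 0 := by rw [hαβ]; simp
    rw [coeff_mul_apply_left, Finsupp.sum] at hz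
    exact hz
  by_cases hone : α.coeff.support = {p}
  · have := hval (p * y₀)
    rw [hone, Finset.sum_singleton] at this
    simp only [inv_mul_cancel_left] at this
    rcases mul_eq_zero.mp this with h | h
    · exact (Finsupp.mem_support_iff.mp hp) h
    · exact (Finsupp.mem_support_iff.mp hy₀) h
  · obtain ⟨q, hq, hqp⟩ : ∃ q ∈ α.coeff.support, q ≠ p := by
      by_contra hcon
      push Not at hcon
      apply hone
      ext x
      simp only [Finset.mem_singleton]
      exact ⟨hcon x, fun h => h ▸ hp⟩
    have hsupp : α.coeff.support = {p, q} := by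
      apply (Finset.eq_of_subset_of_card_le _ _).symm
      · intro x hx
        simp only [Finset.mem_insert, Finset.mem_singleton] at hx
        rcases hx with rfl | rfl <;> assumption
      · rw [Finset.card_pair hqp.symm]
        exact hle
    set t : G := q⁻¹ * p with ht
    have ht1 : t ≠ 1 := by
      intro h
      apply hqp
      rw [ht, inv_mul_eq_one] at h
      exact h
    have hstep : ∀ y ∈ β.coeff.support, t * y ∈ β.coeff.support := by
      intro y hy
      have := hval (p * y)
      rw [hsupp, Finset.sum_pair hqp.symm] at this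
      simp only [inv_mul_cancel_left] at this
      rw [Finsupp.mem_support_iff]
      intro h0
      have h2 : q⁻¹ * (p * y) = t * y := by rw [ht, mul_assoc]
      rw [h2, h0, mul_zero, add_zero] at this
      rcases mul_eq_zero.mp this with h | h
      · exact (Finsupp.mem_support_iff.mp hp) h
      · exact (Finsupp.mem_support_iff.mp hy) h
    have hiter : ∀ n : ℕ, t ^ n * y₀ ∈ β.coeff.support := by
      intro n
      induction n with
      | zero => simpa using hy₀
      | succ n ih =>
        have := hstep _ ih
        rw [pow_succ', mul_assoc]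
        exact this
    have hnotinj : ¬ Function.Injective (fun n : ℕ => t ^ n) := by
      intro hinj
      have hinj2 : Function.Injective (fun n : ℕ => (⟨t ^ n * y₀, hiter n⟩ : β.coeff.support)) := by
        intro a b hab
        apply hinj
        have := congrArg Subtype.val hab
        exact mul_right_cancel this
      exact not_injective_infinite_finite _ hinj2
    have hfin : IsOfFinOrder t := by
      by_contra hcon
      exact hnotinj (injective_pow_iff_not_isOfFinOrder.mpr hcon)
    exact ht1 (hG t hfin)

/-- `G` is torsion-free: `1` is its only element of finite order. -/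
def TorsionFree (G : Type u) [Group G] : Prop := ∀ g : G, IsOfFinOrder g → g = 1

/-- Every homomorphism from `L` to the integers (written multiplicatively) is trivial. -/
def NoHomToZ (L : Type u) [Group L] : Prop := ∀ φ : L →* Multiplicative ℤ, φ = 1

/-- `K[L]` has no zero divisors. -/
def Domain (K : Type v) [Field K] (L : Type u) [Group L] : Prop :=
  NoZeroDivisors (MonoidAlgebra K L)

/-- `α` is a nonzero left zero divisor of `K[G]`. -/
def LeftZD {G : Type u} [Group G] (α : MonoidAlgebra K G) : Prop :=
  α ≠ 0 ∧ ∃ β : MonoidAlgebra K G, β ≠ 0 ∧ α * β = 0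

/-- The number of terms of `α`, the size of its support. -/
noncomputable def terms {G : Type u} [Group G] (α : MonoidAlgebra K G) : ℕ :=
  α.coeff.support.card

/-- The subgroup generated by `g⁻¹ supp α`. -/
def transGen {G : Type u} [Group G] (α : MonoidAlgebra K G) (g : G) : Subgroup G :=
  Subgroup.closure ((fun x => g⁻¹ * x) '' (α.coeff.support : Set G))

/-- **Local form of Higman's argument.**  Let `K` be a field and `G` a torsion-free group.
(1) If every finitely generated subgroup `L` of `G` has `K[L]` without zero divisors or has a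
nontrivial homomorphism to `ℤ`, then `K[G]` has no zero divisors.
(2) Kaplansky's zero-divisor conjecture over `K` holds as soon as it holds for all finitely
generated torsion-free groups with no nontrivial homomorphism to `ℤ`.
(3) If `α β = 0`, with `α`, `β` nonzero, and `α` has the least support size among left zero divisors
of `K[G]`, then `α` has at least three terms and, for every `g` in the support of `α`, the subgroup
generated by `g⁻¹ supp α` has no nontrivial homomorphism to `ℤ`.
(4) The same conclusion for every left zero divisor with exactly three terms. -/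
theorem result :
    (∀ (K : Type v) [Field K] (G : Type u) [Group G], TorsionFree G →
      (∀ L : Subgroup G, L.FG → Domain K L ∨ ¬ NoHomToZ L) → Domain K G) ∧
    (∀ (K : Type v) [Field K],
      (∀ (L : Type u) [Group L], Group.FG L → TorsionFree L → NoHomToZ L → Domain K L) →
      ∀ (G : Type u) [Group G], TorsionFree G → Domain K G) ∧
    (∀ (K : Type v) [Field K] (G : Type u) [Group G], TorsionFree G →
      ∀ α : MonoidAlgebra K G, LeftZD α → (∀ α' : MonoidAlgebra K G, LeftZD α' → terms α ≤ terms α') →
      3 ≤ terms α ∧ ∀ g ∈ α.coeff.support, NoHomToZ (transGen α g)) ∧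
    (∀ (K : Type v) [Field K] (G : Type u) [Group G], TorsionFree G →
      ∀ α : MonoidAlgebra K G, LeftZD α → terms α = 3 →
      ∀ g ∈ α.coeff.support, NoHomToZ (transGen α g)) := by
  classical
  have part3 : ∀ (K : Type v) [Field K] (G : Type u) [Group G], TorsionFree G →
      ∀ α β : MonoidAlgebra K G, α ≠ 0 → β ≠ 0 → α * β = 0 →
      (∀ α' β' : MonoidAlgebra K G, α' ≠ 0 → β' ≠ 0 → α' * β' = 0 →
        α.coeff.support.card ≤ α'.coeff.support.card) →
      3 ≤ α.coeff.support.card ∧ ∀ g ∈ α.coeff.support,
        ∀ φ : Subgroup.closure ((fun x => g⁻¹ * x) '' (α.coeff.support : Set G)) →*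
          Multiplicative ℤ, φ = 1 := by
    intro K _ G _ hG α β hα hβ hαβ hmin
    refine ⟨two_terms hG α β hα hβ hαβ, ?_⟩
    intro g hg φ
    by_contra hφ
    obtain ⟨α₁, hα₁, hz, h1, hcard, himg⟩ := translate α β hαβ g hg
    have hLin : ∀ x ∈ α₁.coeff.support,
        x ∈ Subgroup.closure ((fun x => g⁻¹ * x) '' (α.coeff.support : Set G)) := by
      intro x hx
      apply Subgroup.subset_closure
      rw [← himg]
      exact hx
    obtain ⟨s, hs, hs'⟩ := exists_generator_ne _ φ hφ
    have hsm : s ∈ α₁.coeff.support := by
      have : s ∈ (α₁.coeff.support : Set G) := by rw [himg]; exact hs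
      exact this
    obtain ⟨a', b', ha', hb', hab', hlt⟩ := descent α₁ β hα₁ hβ hz _ hLin h1 φ s hsm hs'
    have := hmin a' b' ha' hb' hab'
    omega
  refine ⟨?_, ?_, ?_, ?_⟩
  · intro K _ G _ _ H
    refine ⟨fun {α β} h => ?_⟩
    by_contra hcon
    push Not at hcon
    refine main (fun L hL => ?_) _ α β rfl hcon.1 hcon.2 h
    rcases H L hL with hd | hn
    · exact Or.inl hd
    · right
      unfold NoHomToZ at hn
      push Not at hn
      exact hn
  · intro K _ H G _ hG
    refine ⟨fun {α β} h => ?_⟩
    by_contra hcon
    push Not at hcon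
    refine main (fun L hL => ?_) _ α β rfl hcon.1 hcon.2 h
    by_cases hφ : ∀ φ : L →* Multiplicative ℤ, φ = 1
    · left
      refine H L ((Group.fg_iff_subgroup_fg L).mpr hL) (fun l hl => ?_) hφ
      have := hG (l : G) (L.subtype.isOfFinOrder hl)
      exact Subtype.ext this
    · right
      push Not at hφ
      exact hφ
  · intro K _ G _ hG α ⟨hα, β, hβ, hαβ⟩ hmin
    exact part3 K G hG α β hα hβ hαβ (fun α' β' hα' hβ' hz => hmin α' ⟨hα', β', hβ', hz⟩)
  · intro K _ G _ hG α ⟨hα, β, hβ, hαβ⟩ h3
    refine (part3 K G hG α β hα hβ hαβ ?_).2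
    intro α' β' hα' hβ' hz
    have h3' : α.coeff.support.card = 3 := h3
    rw [h3']
    exact two_terms hG α' β' hα' hβ' hz

end Vale.Agent.Results.P201.LocalHigman
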